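import Vale.Agent.P083.Main

/-!
# P083: full free products and the norm ultrapower of `O₂`

Let `A i` (`i ∈ I`) be unital C*-algebras which embed unitally in the Cuntz algebra `O₂` (by the
Kirchberg-Phillips theorem, all separable unital exact C*-algebras are of this kind), and let `P`
be their full unital free product, assumed separable (this is automatic if `I` is countable and
the `A i` are separable).  Then `P` embeds unitally in `O₂^ω`.  More precisely there are unital
`*`-homomorphisms `ψ n : P → O₂` with `‖ψ n x‖ → ‖x‖` for every `x`.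
-/

open Filter Topology
open scoped BoundedContinuousFunction

theorem Vale.Agent.Results.P083.FreeProducts.result
    -- the Cuntz algebra `O = O₂`, with its generators
    {O : Type} [CStarAlgebra O] {s₀ s₁ : O} (hO : P083.IsCuntzAlgebra s₀ s₁)
    -- a family of unital C*-algebras which embed unitally in `O₂`
    {I : Type*} {A : I → Type} [∀ i, CStarAlgebra (A i)]
    (hA : ∀ i, ∃ j : A i →⋆ₐ[ℂ] O, Function.Injective j)
    -- their full free product, assumed separable
    {P : Type} [CStarAlgebra P] [TopologicalSpace.SeparableSpace P]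
    {ι : ∀ i, A i →⋆ₐ[ℂ] P} (hP : P083.IsFreeProduct ι) :
    (∃ ψ : ℕ → (P →⋆ₐ[ℂ] O), ∀ x, Tendsto (fun n => ‖ψ n x‖) atTop (𝓝 ‖x‖)) ∧
    -- the embedding in the norm ultrapower `U = O₂^ω`
    ∀ (ω : Ultrafilter ℕ), (ω : Filter ℕ) ≤ cofinite → ∀ (U : Type) [CStarAlgebra U]
      (q : (ℕ →ᵇ O) →⋆ₐ[ℂ] U), P083.IsUltrapower ω q →
        ∃ Ψ : P →⋆ₐ[ℂ] U, Function.Injective Ψ := by
  choose j hj using hA
  obtain ⟨ψ, hψ⟩ := P083.exists_seq hO hP j hj
  refine ⟨⟨ψ, hψ⟩, fun ω hω U _ q hq => ⟨q.comp (P083.seqHom ψ), ?_⟩⟩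
  exact P083.injective_of_seq hψ (Nat.cofinite_eq_atTop ▸ hω) hq
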